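import Vale.Agent.P282.Gor

open scoped ENNReal

namespace Vale.Agent.Results.P282.GorCodim

open Vale.Agent.P282 IsLocalRing

theorem result {n : ℕ} (hn : 2 ≤ n) (R O K : Type) [CommRing R] [IsDomain R]
    [IsIntegrallyClosed R] [Algebra ℂ R] [Algebra.FiniteType ℂ R] (m : Ideal R) [m.IsMaximal]
    [CommRing O] [IsLocalRing O] [Algebra R O] [IsLocalization.AtPrime O m]
    [Field K] [Algebra ℂ K] [Algebra R K] [IsFractionRing R K] [IsScalarTower ℂ R K]
    [Algebra O K] [IsScalarTower R O K] (hdim : Algebra.trdeg ℂ K = n)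
    (D : Fin n → Derivation ℂ K K) (hD : LinearIndependent K D) (r : ℕ) (g : K)
    (hklt : IsKlt O D r g) (hG : IsGorenstein O n) (c : ℕ)
    (hc : Module.finrank (ResidueField O) (CotangentSpace O) = n + c) (h2 : 2 ≤ c)
    (h : c ≤ 4 ∨ (c + 2) * (n - 2) ^ n < 2 * (n - 1) ^ n) :
    nvol O D r g < 2 * ((n - 1 : ℕ) : ℝ≥0∞) ^ n := by
  obtain ⟨k, rfl⟩ := Nat.exists_eq_add_of_le' hn
  refine main_gor m hdim D hD r g hklt.1 hG c hc h2 ?_
  rcases h with h | h
  · rcases h.eq_or_lt with h | h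
    · exact Or.inl h
    · exact Or.inr ((Nat.mul_le_mul_right _ (by omega)).trans_lt (five_lt k))
  · exact Or.inr h

end Vale.Agent.Results.P282.GorCodim
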