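import Vale.Agent.P282.Main

open scoped ENNReal

namespace Vale.Agent.Results.P282.SmallMult

open Vale.Agent.P282 IsLocalRing

theorem result {n : ℕ} (hn : 2 ≤ n) (R O K : Type) [CommRing R] [IsDomain R]
    [IsIntegrallyClosed R] [Algebra ℂ R] [Algebra.FiniteType ℂ R] (m : Ideal R) [m.IsMaximal]
    [CommRing O] [IsLocalRing O] [Algebra R O] [IsLocalization.AtPrime O m]
    [Field K] [Algebra ℂ K] [Algebra R K] [IsFractionRing R K] [IsScalarTower ℂ R K]
    [Algebra O K] [IsScalarTower R O K] (hdim : Algebra.trdeg ℂ K = n)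
    (D : Fin n → Derivation ℂ K K) (hD : LinearIndependent K D) (r : ℕ) (g : K)
    (hklt : IsKlt O D r g) (y : Fin n → O)
    (hreg : RingTheory.Sequence.IsRegular O (List.ofFn y))
    (hred : ∃ j : ℕ, maximalIdeal O ^ (j + 1) = Ideal.span (Set.range y) * maximalIdeal O ^ j)
    (e : ℕ) (he : Module.length O (O ⧸ Ideal.span (Set.range y)) = e) :
    (∀ b ∉ Ideal.span (Set.range y), ∀ p q : ℕ, 0 < q → b ^ q ∈ maximalIdeal O ^ p →
      nvol O D r g ≤ e * ENNReal.ofReal (n - p / q) ^ n) ∧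
    (¬maximalIdeal O ^ 2 ≤ Ideal.span (Set.range y) → (e ≤ 5 ∨ n = 4 ∧ e ≤ 10) →
      nvol O D r g < 2 * ((n - 1 : ℕ) : ℝ≥0∞) ^ n) := by
  obtain ⟨k, rfl⟩ := Nat.exists_eq_add_of_le' hn
  obtain ⟨j, hred⟩ := hred
  have _ : IsNoetherianRing R := Algebra.FiniteType.isNoetherianRing ℂ R
  have _ : IsNoetherianRing O := IsLocalization.isNoetherianRing m.primeCompl O inferInstance
  have h := main_qr (k := k + 1) m hdim D hD r g hklt.1 y (qr_of_regular y hreg) hred e he
  refine ⟨h, fun h2 he => ?_⟩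
  obtain ⟨b, hb, hb'⟩ := SetLike.not_le_iff_exists.1 h2
  exact gap_of_le (h b hb' 2 1 one_pos (by rwa [pow_one])) he

end Vale.Agent.Results.P282.SmallMult
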